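import Vale.Agent.P088.R2.H983.N.Sms
import Vale.Agent.P088.R2.H983.Fl.Zi
import Vale.Agent.P088.R2.H230.W.FlS

/-!
# P088, stage 3, zone A: `SmS` for the near fields (`c0 ≤ r ≤ r1`)

The field of a slot is `cf σ e W (4 G (α(r, e·h) e + β(r, e·h) h))`, `e` a constant unit vector,
`h = q/|q|`, `q = x - y`, `(α, β)` = helper942's coefficients `(c1e, c1h)` or `(c2e, c2h)`.
-/

open Set Filter
open scoped ContDiff Topology

noncomputable section

namespace Vale.Agent.P088.R2.H983.N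

open Vale.Agent.P088.LR Vale.Agent.P088.HY Vale.Agent.P088.R2.H464.Cu
open Vale.Agent.P088.R2.H983.Fl
open Vale.Agent.P088.R2.H961.GW (Sm Sl slx sly)
open Vale.Agent.P088.R2.H747.SW (SmS ss Ys)
open Vale.Agent.P088.R2.H942.Iso.Near (KK)

section gen

variable {E ι κ : Type*} [NormedAddCommGroup E] [NormedSpace ℝ E] [Fintype ι]
  {σ : Sl E κ} {q : E → ι → ℝ} {z : E}

/-- The derivative of `1 / |q|`. -/
theorem inv_nn (j : κ) (dq : Dfv q z) (h0 : 0 < H230.W.dd (q z) (q z)) :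
    DifferentiableAt ℝ (fun z => (nn (q z))⁻¹) z ∧
      |σ.D j (fun z => (nn (q z))⁻¹) z| ≤ nn (dv σ j q z) * (nn (q z))⁻¹ ^ 2 := by
  have n0 : 0 < nn (q z) := Real.sqrt_pos.2 h0
  have d0 := dq.dd dq
  have hd : HasDerivAt (fun x : ℝ => (√x)⁻¹)
      (-(1 / (2 * √(H230.W.dd (q z) (q z)))) / √(H230.W.dd (q z) (q z)) ^ 2)
      (H230.W.dd (q z) (q z)) := (Real.hasDerivAt_sqrt h0.ne').inv n0.ne'
  have hf0 := hd.comp_hasFDerivAt z d0.hasFDerivAt
  have hf : HasFDerivAt (fun z => (nn (q z))⁻¹)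
      ((-(1 / (2 * √(H230.W.dd (q z) (q z)))) / √(H230.W.dd (q z) (q z)) ^ 2) •
        fderiv ℝ (fun z => H230.W.dd (q z) (q z)) z) z := hf0
  refine ⟨hf.differentiableAt, ?_⟩
  have e1 : σ.D j (fun z => (nn (q z))⁻¹) z =
      -(1 / (2 * √(H230.W.dd (q z) (q z)))) / √(H230.W.dd (q z) (q z)) ^ 2 *
        σ.D j (fun z => H230.W.dd (q z) (q z)) z := by
    simp only [Sl.D]
    rw [hf.fderiv]
    simp only [_root_.smul_apply, smul_eq_mul]; ring
  have e2 := D_dd σ j dq dq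
  have e3 : |σ.D j (fun z => H230.W.dd (q z) (q z)) z| ≤ 2 * (nn (dv σ j q z) * nn (q z)) := by
    rw [e2]
    refine (abs_add_le _ _).trans ?_
    have a1 := abs_dd_le (q z) (dv σ j q z)
    have a2 := abs_dd_le (dv σ j q z) (q z)
    linarith
  have e4 : √(H230.W.dd (q z) (q z)) = nn (q z) := rfl
  rw [e1, e4, abs_mul]
  have e5 : |-(1 / (2 * nn (q z))) / nn (q z) ^ 2| = 1 / (2 * nn (q z)) / nn (q z) ^ 2 := by
    rw [neg_div, abs_neg, abs_of_pos (by positivity)]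
  rw [e5]
  have := mul_le_mul_of_nonneg_left e3
    (show 0 ≤ 1 / (2 * nn (q z)) / nn (q z) ^ 2 by positivity)
  refine this.trans (le_of_eq ?_)
  field_simp

/-- `q/|q|`. -/
def un (q : E → ι → ℝ) (z : E) : ι → ℝ := (nn (q z))⁻¹ • q z

theorem un_one (h0 : 0 < H230.W.dd (q z) (q z)) : H230.W.dd (un q z) (un q z) = 1 := by
  have n0 : 0 < nn (q z) := Real.sqrt_pos.2 h0
  have h1 := nn_sq (q z)
  unfold un
  rw [H230.W.dd_smul_left, H230.W.dd_smul_right, ← h1]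
  field_simp

theorem un_df (dq : Dfv q z) (h0 : 0 < H230.W.dd (q z) (q z)) : Dfv (un q) z := by
  have n0 : 0 < nn (q z) := Real.sqrt_pos.2 h0
  have d0 := dq.dd dq
  have hd : HasDerivAt (fun x : ℝ => (√x)⁻¹)
      (-(1 / (2 * √(H230.W.dd (q z) (q z)))) / √(H230.W.dd (q z) (q z)) ^ 2)
      (H230.W.dd (q z) (q z)) := (Real.hasDerivAt_sqrt h0.ne').inv n0.ne'
  have hf0 := (hd.comp_hasFDerivAt z d0.hasFDerivAt).differentiableAt
  have d1 : DifferentiableAt ℝ (fun z => (nn (q z))⁻¹) z := hf0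
  exact fun i => d1.mul (dq i)

theorem un_D (j : κ) (dq : Dfv q z) (h0 : 0 < H230.W.dd (q z) (q z)) :
    nn (dv σ j (un q) z) ≤ 2 * nn (dv σ j q z) * (nn (q z))⁻¹ := by
  have n0 : 0 < nn (q z) := Real.sqrt_pos.2 h0
  obtain ⟨d1, d2⟩ := inv_nn (σ := σ) j dq h0
  have e : dv σ j (un q) z = (nn (q z))⁻¹ • dv σ j q z +
      σ.D j (fun z => (nn (q z))⁻¹) z • q z := dv_smul σ j d1 dq
  rw [e]
  refine (nn_add_le _ _).trans ?_
  rw [nn_smul, nn_smul, abs_of_pos (inv_pos.2 n0)]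
  have := mul_le_mul_of_nonneg_right d2 n0.le
  have e2 : nn (dv σ j q z) * (nn (q z))⁻¹ ^ 2 * nn (q z) = nn (dv σ j q z) * (nn (q z))⁻¹ := by
    field_simp
  rw [e2] at this
  linarith

end gen

section near

variable {n : ℕ} {κ : Type*} {σ : Sl (VV n) (Fin n)} {z : VV n} {B : ℝ}

theorem dfv_dif (z : VV n) : Dfv (fun z : VV n => dif z) z := fun i => (difL i).differentiableAt

theorem dv_dif (hσ : Un σ) (j : Fin n) : nn (dv σ j (fun z : VV n => dif z) z) ≤ 2 * n := by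
  have h1 : ∀ i, |dv σ j (fun z : VV n => dif z) z i| ≤ 2 := by
    intro i
    refine (hσ j (fun z : VV n => dif z i) z).trans ?_
    have e : fderiv ℝ (fun z : VV n => dif z i) z = difL i := (difL i).fderiv
    rw [e]; exact norm_difL i
  refine (nn_le_of (by norm_num) h1).trans ?_
  rw [Fintype.card_fin]
  have h2 : √(n : ℝ) ≤ n := by
    rcases Nat.eq_zero_or_pos n with h | h
    · subst h; simp
    · have h3 : (1 : ℝ) ≤ n := by exact_mod_cast h
      rw [Real.sqrt_le_left (by positivity)]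
      nlinarith
  linarith

/-- `h = q/|q|`. -/
def hq (z : VV n) : Fin n → ℝ := un (fun z : VV n => dif z) z

/-- The covector of the near field, `(α, β)` at `(r, e·h)`. -/
def gN (α β : ℝ × ℝ → ℝ) (G r : VV n → ℝ) (e : Fin n → ℝ) (l : Fin n) (z : VV n) : ℝ :=
  ((4 * G z) • (α (r z, H230.W.dd e (hq z)) • e + β (r z, H230.W.dd e (hq z)) • hq z)) l

/-- The near field of a slot. -/
def cN (σ : Sl (VV n) (Fin n)) (α β : ℝ × ℝ → ℝ) (W G r : VV n → ℝ) (e : Fin n → ℝ) (l : Fin n)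
    (z : VV n) : ℝ := H230.W.cf σ e W (gN α β G r e) l z

theorem cN_eq (σ : Sl (VV n) (Fin n)) (α β : ℝ × ℝ → ℝ) (W G r : VV n → ℝ) (e : Fin n → ℝ) :
    cN σ α β W G r e = cW σ α β (fun z => 4 * G z) r (fun z => H230.W.dd e (hq z)) W
      (fun _ => e) hq := rfl

/-- The numbers at a point, `T = N + G`. -/
structure Nm (σ : Sl (VV n) (Fin n)) (W m G r : VV n → ℝ) (e : Fin n → ℝ)
    (c0 r1 B c₁ μ T : ℝ) (z : VV n) : Prop where
  B1 : 1 ≤ B
  nB : (n : ℝ) ≤ B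
  T0 : 0 < T
  un : Un σ
  mt : Mt σ z
  lo : ∀ A : Fin n → ℝ, ∑ i, A i ^ 2 ≤ 2 * ss σ A z
  dG : DifferentiableAt ℝ G z
  G0 : 0 ≤ G z
  GT : G z ≤ T
  G1 : ∀ j, |σ.D j G z| ≤ B * G z
  dr : DifferentiableAt ℝ r z
  r0 : c0 ≤ r z
  r1 : r z ≤ r1
  r2 : ∀ j, |σ.D j r z| ≤ B
  q0 : 1 ≤ B * nn (dif z)
  ee : H230.W.dd e e = 1
  dW : Dfv (gw σ W) z
  W1 : c₁ * T ≤ nn (gw σ W z)
  W2 : ∀ j, nn (dv σ j (gw σ W) z) ≤ B * T
  m1 : m z ≤ B * T
  mG : μ * G z ≤ m z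
  m2 : ∀ j, |σ.D j m z| ≤ B * m z

variable {W m G r : VV n → ℝ} {e : Fin n → ℝ} {c0 r1 c₁ μ T : ℝ}

theorem Nm.q1 (h : Nm σ W m G r e c0 r1 B c₁ μ T z) :
    0 < H230.W.dd ((fun z : VV n => dif z) z) ((fun z : VV n => dif z) z) := by
  have h1 := h.q0
  have h2 : 0 < nn (dif z) := by
    by_contra hc
    have := mul_nonpos_of_nonneg_of_nonpos (by linarith [h.B1] : (0 : ℝ) ≤ B) (not_lt.1 hc)
    linarith
  have h3 := nn_sq (dif z)
  show 0 < H230.W.dd (dif z) (dif z)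
  rw [← h3]; positivity

/-- `AtG` with `b = 4 B²`. -/
theorem Nm.at (h : Nm σ W m G r e c0 r1 B c₁ μ T z) :
    AtG σ (KK c0 r1) (fun z => 4 * G z) r (fun z => H230.W.dd e (hq z)) (fun _ => e) hq
      (4 * B ^ 2) z := by
  have B1 := h.B1
  have B0 : 0 < B := by linarith
  have q1 := h.q1
  have dh : Dfv (hq (n := n)) z := un_df (dfv_dif z) q1
  have hh : H230.W.dd (hq z) (hq z) = 1 := un_one q1
  have de : Dfv (fun _ : VV n => e) z := fun i => differentiableAt_const _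
  have n1 := nn_one h.ee
  have n2 := nn_one hh
  have dve : ∀ j, dv σ j (fun _ : VV n => e) z = 0 := by
    intro j; funext i; simp [Fl.dv, Sl.D]
  have nn0 : nn (0 : Fin n → ℝ) = 0 := by unfold nn H230.W.dd; simp
  have bh : ∀ j, nn (dv σ j hq z) ≤ 4 * B ^ 2 := by
    intro j
    refine (un_D j (dfv_dif z) q1).trans ?_
    have a1 := dv_dif (z := z) h.un j
    have a2 : (nn (dif z))⁻¹ ≤ B := by
      have h2 : 0 < nn (dif z) := Real.sqrt_pos.2 q1
      rw [inv_le_iff_one_le_mul₀ h2]; exact h.q0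
    have h2 : 0 < (nn (dif z))⁻¹ := inv_pos.2 (Real.sqrt_pos.2 q1)
    have a3 : 2 * nn (dv σ j (fun z : VV n => dif z) z) ≤ 4 * B := by linarith [h.nB]
    calc 2 * nn (dv σ j (fun z : VV n => dif z) z) * (nn (dif z))⁻¹ ≤ 4 * B * B :=
          mul_le_mul a3 a2 h2.le (by positivity)
      _ = _ := by ring
  have hg : H230.W.dd e (hq z) ∈ Icc (-1 : ℝ) 1 := by
    have := H230.W.dd_cs e (hq z)
    rw [h.ee, hh] at this
    exact abs_le.1 (abs_le_of_sq_le_sq (by linarith) (by norm_num))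
  have b4 : B ≤ 4 * B ^ 2 := by nlinarith
  refine { dk := h.dG.const_mul 4, ds := h.dr, dg := de.dd dh, de := de, dh := dh,
           ee := by rw [n1]; norm_num, hh := by rw [n2]; norm_num, mem := ⟨⟨h.r0, h.r1⟩, hg⟩,
           k0 := by have := h.G0; positivity, bk := fun j => ?_, bs := fun j => (h.r2 j).trans b4,
           bg := fun j => ?_, be := fun j => ?_, bh := bh }
  · have e1 : σ.D j (fun z => 4 * G z) z = 4 * σ.D j G z := by
      simp only [Sl.D]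
      rw [fderiv_const_mul h.dG]
      simp only [_root_.smul_apply, smul_eq_mul]; ring
    rw [e1, abs_mul, abs_of_pos (by norm_num : (0 : ℝ) < 4)]
    have := h.G1 j
    have a := mul_le_mul_of_nonneg_right b4 h.G0
    linarith
  · rw [D_dd σ j de dh, dve j]
    have a1 := abs_dd_le e (dv σ j hq z)
    have a2 : H230.W.dd (0 : Fin n → ℝ) (hq z) = 0 := by unfold H230.W.dd; simp
    rw [n1, one_mul] at a1
    rw [a2, add_zero]
    exact a1.trans (bh j)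
  · rw [dve j, nn0]; positivity

/-- The Cauchy-Schwarz constant of the metric. -/
theorem sK_of (s2 : ∀ i j, |σ.s i j z| ≤ 2) {K : ℝ} (hK : 2 * (n : ℝ) ≤ K) (A B : Fin n → ℝ) :
    (∑ i, ∑ j, σ.s i j z * A i * B j) ^ 2 ≤ K ^ 2 * ((∑ i, A i ^ 2) * ∑ i, B i ^ 2) := by
  have h1 := H960.W.abs_sum2_le (fun i j => σ.s i j z) s2 A B
  have h2 := L1_mul A B
  rw [Fintype.card_fin] at h2
  have h3 : |∑ i, ∑ j, σ.s i j z * A i * B j| ≤ K * (nn A * nn B) := by
    refine h1.trans ?_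
    have h4 := mul_le_mul_of_nonneg_left h2 (by norm_num : (0 : ℝ) ≤ 2)
    refine h4.trans ?_
    have : 0 ≤ nn A * nn B := mul_nonneg (nn_nonneg _) (nn_nonneg _)
    have := mul_le_mul_of_nonneg_right hK this
    linarith
  have h5 := pow_le_pow_left₀ (abs_nonneg _) h3 2
  rw [sq_abs] at h5
  refine h5.trans (le_of_eq ?_)
  have e1 : nn A ^ 2 = ∑ i, A i ^ 2 := by
    rw [nn_sq]; exact Finset.sum_congr rfl fun i _ => by ring
  have e2 : nn B ^ 2 = ∑ i, B i ^ 2 := by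
    rw [nn_sq]; exact Finset.sum_congr rfl fun i _ => by ring
  rw [← e1, ← e2]; ring

theorem ex_eps (N C μ η : ℝ) (hN : 0 ≤ N) (hC : 0 < C) (hμ : 0 < μ) (hη : 0 < η) :
    ∃ ε > 0, N ^ 2 * (14 * ε) ≤ η ∧ N ^ 2 * (1296 * C * ε) ≤ η * μ ∧
      N * (1152 * C ^ 2 * ε) ≤ η ^ 4 * μ ^ 2 := by
  have key : ∀ a y ε : ℝ, 0 ≤ a → 0 < y → 0 ≤ ε → ε ≤ y / (a + 1) → a * ε ≤ y := by
    intro a y ε ha hy h0 h
    rw [le_div_iff₀ (by positivity)] at h
    linarith
  refine ⟨min (η / (14 * N ^ 2 + 1)) (min (η * μ / (1296 * C * N ^ 2 + 1))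
    (η ^ 4 * μ ^ 2 / (1152 * C ^ 2 * N + 1))), ?_, ?_, ?_, ?_⟩
  · refine lt_min (by positivity) (lt_min (by positivity) (by positivity))
  · have := key (14 * N ^ 2) η _ (by positivity) hη (le_min (by positivity)
      (le_min (by positivity) (by positivity))) (min_le_left _ (min (η * μ / (1296 * C * N ^ 2 + 1))
        (η ^ 4 * μ ^ 2 / (1152 * C ^ 2 * N + 1))))
    linarith
  · have := key (1296 * C * N ^ 2) (η * μ) _ (by positivity) (by positivity)
      (le_min (by positivity) (le_min (by positivity) (by positivity)))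
      ((min_le_right (η / (14 * N ^ 2 + 1)) (min (η * μ / (1296 * C * N ^ 2 + 1))
        (η ^ 4 * μ ^ 2 / (1152 * C ^ 2 * N + 1)))).trans (min_le_left _ _))
    linarith
  · have := key (1152 * C ^ 2 * N) (η ^ 4 * μ ^ 2) _ (by positivity) (by positivity)
      (le_min (by positivity) (le_min (by positivity) (by positivity)))
      ((min_le_right (η / (14 * N ^ 2 + 1)) (min (η * μ / (1296 * C * N ^ 2 + 1))
        (η ^ 4 * μ ^ 2 / (1152 * C ^ 2 * N + 1)))).trans (min_le_right _ _))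
    linarith

/-- **`SmS` for the near fields**: `η` arbitrary, then `T = N + G` large. -/
theorem smS_near {n : ℕ} (hn : 0 < n) {α β : ℝ × ℝ → ℝ} {C c0 r1 B c₁ μ η K : ℝ}
    (c : Cf α β (KK c0 r1) C) (hB : 1 ≤ B) (hc₁ : 0 < c₁) (hμ : 0 < μ) (hη : 0 < η) (hη1 : η ≤ 1)
    (hK : 2 * (n : ℝ) ≤ K) :
    ∃ T₀ : ℝ, 1 ≤ T₀ ∧ ∀ (σ : Sl (VV n) (Fin n)) (W m G r v : VV n → ℝ) (e : Fin n → ℝ) (T : ℝ)
      (z : VV n), T₀ ≤ T → Nm σ W m G r e c0 r1 B c₁ μ T z → v z = 0 →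
      SmS σ W m (cN σ α β W G r e) v η K z := by
  have C0 := c.C0
  obtain ⟨ε, hε, e1, e2, e3⟩ := ex_eps n C (μ / 4) η (by positivity) C0 (by positivity) hη
  obtain ⟨C₂, hC₂⟩ : ∃ C₂ : ℝ, C₂ = 4 * B ^ 2 + B + 3 := ⟨_, rfl⟩
  have C₂0 : 0 < C₂ := by rw [hC₂]; positivity
  refine ⟨1 + C₂ / (ε * c₁ ^ 2) + C₂ / (ε * c₁), ?_, ?_⟩
  · have : 0 < C₂ / (ε * c₁ ^ 2) := by positivity
    have : 0 < C₂ / (ε * c₁) := by positivity
    linarith
  intro σ W m G r v e T z hT h hv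
  have : Nonempty (Fin n) := ⟨⟨0, hn⟩⟩
  have p1 : 0 < C₂ / (ε * c₁ ^ 2) := by positivity
  have p2 : 0 < C₂ / (ε * c₁) := by positivity
  have T1 : 1 ≤ T := by linarith
  have t1 : C₂ ≤ ε * c₁ ^ 2 * T := by
    have : C₂ / (ε * c₁ ^ 2) ≤ T := by linarith
    rw [div_le_iff₀ (by positivity)] at this
    linarith
  have t2 : C₂ ≤ ε * c₁ * T := by
    have : C₂ / (ε * c₁) ≤ T := by linarith
    rw [div_le_iff₀ (by positivity)] at this
    linarith
  have GT := h.GT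
  have G0 := h.G0
  have B2 : B ≤ B ^ 2 := by nlinarith
  have rg : Rg σ W (fun z => 4 * G z) (4 * B ^ 2) ε z := by
    refine rg_of h.dW hc₁ h.T0 hε h.W1 (fun j => (h.W2 j).trans ?_) ?_ ?_ t1 t2
    · exact mul_le_mul_of_nonneg_right (by rw [hC₂]; nlinarith) h.T0.le
    · have : 4 * G z ≤ 4 * T := by linarith
      refine this.trans (mul_le_mul_of_nonneg_right (by rw [hC₂]; nlinarith) h.T0.le)
    · rw [hC₂]; linarith
  have hw2 : (c₁ * T) ^ 2 ≤ nn (gw σ W z) ^ 2 :=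
    pow_le_pow_left₀ (mul_nonneg hc₁.le h.T0.le) h.W1 2
  have m0 : 0 ≤ m z := le_trans (by positivity) h.mG
  rw [cN_eq]
  refine smS_of c h.at rg h.mt hv (by positivity : 0 < μ / 4) hη hη1 h.lo
    (sK_of h.mt.s2 hK) ?_ ?_ ?_ ?_ ?_ ?_
  · have := h.mG
    linarith
  · have a1 := mul_le_mul_of_nonneg_left hw2 hε.le
    have a2 := mul_le_mul_of_nonneg_right t1 h.T0.le
    have a3 : 2 + m z ≤ C₂ * T := by
      have := h.m1
      rw [hC₂]
      nlinarith [sq_nonneg B]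
    nlinarith
  · intro i
    have a1 := h.m2 i
    have : B * m z ≤ m z * (4 * B ^ 2) := by nlinarith
    linarith
  · rw [Fintype.card_fin]; exact e1
  · rw [Fintype.card_fin]; exact e2
  · rw [Fintype.card_fin]; exact e3

end near

end Vale.Agent.P088.R2.H983.N
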