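import Vale.Agent.P088.R2.H983.Fl.Sml
import Vale.Agent.P088.R2.H747.S.SemS

/-!
# P088, stage 3, zone A: `SmS` for the Lee fields

`smS_of`: from the regime `Rg` (all quantities small against `|w|²`, `w = D W`) and
`μ k ≤ m`, `2 + m ≤ ε |w|²`, `|D m| ≤ m b`: every field of `SmS` with `η` as soon as `C ε ≤ η⁴`.
`rg_of`: the regime from `c₁ T ≤ |w|`, `|D w| ≤ C₂ T`, `k, m ≤ C₂ T`, `T` large.
-/

open Set
open scoped ContDiff Topology

noncomputable section

namespace Vale.Agent.P088.R2.H983.N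

open Vale.Agent.P088.R2.H983.Fl
open Vale.Agent.P088.R2.H230.W
open Vale.Agent.P088.R2.H960.W (dF eC cY abs_sum2_le YY)
open Vale.Agent.P088.R2.H961.GW (Sm Sl)
open Vale.Agent.P088.R2.H747.SW (SmS ss Ys)

variable {E ι : Type*} [NormedAddCommGroup E] [NormedSpace ℝ E] [Fintype ι]
variable {α β : ℝ × ℝ → ℝ} {K : Set (ℝ × ℝ)} {C b ε μ η : ℝ} {k s γ W v m : E → ℝ}
  {e h : E → ι → ℝ} {z : E} {σ : Sl E ι}

/-- `|Λ W| ≤ 5 n² ε |w|²`. -/
theorem lam_le [Nonempty ι] (r : Rg σ W k b ε z) (t : Mt σ z) (hb : 0 ≤ b) :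
    |σ.Λ W z| ≤ Fintype.card ι ^ 2 * (5 * ε * nn (gw σ W z) ^ 2) := by
  have hw := nn_pos r.pos
  have hε : 0 ≤ ε := (by positivity : (0:ℝ) ≤ 1 / nn (gw σ W z)).trans (inv_w r hb)
  set w := nn (gw σ W z) with hwd
  have q1 : w ≤ ε * w ^ 2 := by
    have : 1 ≤ ε * w := by linarith [r.hb]
    nlinarith
  have t1 : ∀ i j, |σ.s i j z * (σ.D i (σ.D j W) z + σ.k i z * σ.D j W z) +
      σ.D i (σ.s i j) z * σ.D j W z| ≤ 5 * ε * w ^ 2 := by
    intro i j
    have d2 : |σ.D i (σ.D j W) z| ≤ ε * w ^ 2 :=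
      (abs_le_nn (dv σ i (gw σ W) z) j).trans (r.hM i)
    have d1 : |σ.D j W z| ≤ w := abs_le_nn (gw σ W z) j
    have a1 : |σ.D i (σ.D j W) z + σ.k i z * σ.D j W z| ≤ ε * w ^ 2 + w := by
      refine (abs_add_le _ _).trans (add_le_add d2 ?_)
      rw [abs_mul]
      have := mul_le_mul (t.k1 i) d1 (abs_nonneg _) zero_le_one
      linarith
    refine (abs_add_le _ _).trans ?_
    rw [abs_mul, abs_mul]
    have a2 := mul_le_mul (t.s2 i j) a1 (abs_nonneg _) (by norm_num)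
    have a3 := mul_le_mul (t.D1 i i j) d1 (abs_nonneg _) zero_le_one
    linarith
  unfold Sl.Λ
  refine (Finset.abs_sum_le_sum_abs _ _).trans ?_
  refine (Finset.sum_le_sum fun i _ => (Finset.abs_sum_le_sum_abs _ _).trans
    (Finset.sum_le_sum fun j _ => t1 i j)).trans (le_of_eq ?_)
  simp only [Finset.sum_const, Finset.card_univ, nsmul_eq_mul]
  ring

/-- `|Γ(m, W)| ≤ 2 n² ε m |w|²`. -/
theorem gam_le [Nonempty ι] (r : Rg σ W k b ε z) (t : Mt σ z) (hb : 0 ≤ b) (m0 : 0 ≤ m z)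
    (hm : ∀ i, |σ.D i m z| ≤ m z * b) :
    |σ.Γ m W z| ≤ Fintype.card ι ^ 2 * (2 * ε * (m z * nn (gw σ W z) ^ 2)) := by
  have hw := nn_pos r.pos
  set w := nn (gw σ W z) with hwd
  have t1 : ∀ i j, |σ.s i j z * σ.D i m z * σ.D j W z| ≤ 2 * ε * (m z * w ^ 2) := by
    intro i j
    have d1 : |σ.D j W z| ≤ w := abs_le_nn (gw σ W z) j
    rw [abs_mul, abs_mul]
    have a1 := mul_le_mul (t.s2 i j) (hm i) (abs_nonneg _) (by norm_num)
    have a2 := mul_le_mul a1 d1 (abs_nonneg _) (by positivity)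
    have a3 : b ≤ ε * w := by linarith [r.hb]
    have a4 := mul_le_mul_of_nonneg_left a3 (show 0 ≤ 2 * (m z * w) by positivity)
    linarith
  unfold Sl.Γ
  refine (Finset.abs_sum_le_sum_abs _ _).trans ?_
  refine (Finset.sum_le_sum fun i _ => (Finset.abs_sum_le_sum_abs _ _).trans
    (Finset.sum_le_sum fun j _ => t1 i j)).trans (le_of_eq ?_)
  simp only [Finset.sum_const, Finset.card_univ, nsmul_eq_mul]
  ring

/-- **`SmS` from the regime.** -/
theorem smS_of [Nonempty ι] (c : Cf α β K C) (a : AtG σ K k s γ e h b z) (r : Rg σ W k b ε z)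
    (t : Mt σ z) (hv : v z = 0) (hμ : 0 < μ) (hη : 0 < η) (hη1 : η ≤ 1)
    (lo : ∀ A : ι → ℝ, ∑ i, A i ^ 2 ≤ 2 * ss σ A z) {Ks : ℝ}
    (sK : ∀ A B : ι → ℝ,
      (∑ i, ∑ j, σ.s i j z * A i * B j) ^ 2 ≤ Ks ^ 2 * ((∑ i, A i ^ 2) * ∑ i, B i ^ 2))
    (hkm : μ * k z ≤ m z) (hm : 2 + m z ≤ ε * nn (gw σ W z) ^ 2)
    (hDm : ∀ i, |σ.D i m z| ≤ m z * b)
    (e1 : Fintype.card ι ^ 2 * (14 * ε) ≤ η)
    (e2 : Fintype.card ι ^ 2 * (1296 * C * ε) ≤ η * μ)
    (e3 : Fintype.card ι * (1152 * C ^ 2 * ε) ≤ η ^ 4 * μ ^ 2) :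
    SmS σ W m (cW σ α β k s γ W e h) v η Ks z := by
  obtain ⟨j⟩ := ‹Nonempty ι›
  have hb : 0 ≤ b := (abs_nonneg _).trans (a.bs j)
  have hC := c.C0
  have hk := a.k0
  have hw := nn_pos r.pos
  have hε : 0 ≤ ε := (by positivity : (0:ℝ) ≤ 1 / nn (gw σ W z)).trans (inv_w r hb)
  have m0 : 0 ≤ m z := le_trans (by positivity) hkm
  have hF : nn (gw σ W z) ^ 2 ≤ 2 * σ.F W z := by
    have := lo (gw σ W z)
    have e : ∑ i, gw σ W z i ^ 2 = nn (gw σ W z) ^ 2 := by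
      rw [nn_sq]; exact Finset.sum_congr rfl fun i _ => by ring
    rw [e] at this
    exact this
  have F0 : 0 ≤ σ.F W z := by nlinarith [sq_nonneg (nn (gw σ W z))]
  have N0 : (0 : ℝ) ≤ Fintype.card ι ^ 2 := by positivity
  set w := nn (gw σ W z) with hwd
  have mw : m z * w ^ 2 ≤ 2 * (m z * σ.F W z) := by
    have := mul_le_mul_of_nonneg_left hF m0
    linarith
  have mF : 0 ≤ m z * σ.F W z := mul_nonneg m0 F0
  have k1 : k z ≤ m z / μ := by rw [le_div_iff₀ hμ]; linarith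
  have Y0 : ∀ f : E → ℝ, 0 ≤ Ys σ W f z := fun f => Finset.sum_nonneg fun i _ => sq_nonneg _
  refine { m0 := m0, lo := lo, sK := sK, w1 := ?_, f1 := ?_, f2 := fun f => ?_, f3 := ?_ }
  · refine (abs_add_le _ _).trans ?_
    rw [abs_mul, abs_of_nonneg m0]
    have a1 := mul_le_mul_of_nonneg_left (lam_le r t hb) m0
    have a2 := gam_le r t hb m0 hDm
    have a3 : m z * (Fintype.card ι ^ 2 * (5 * ε * w ^ 2)) +
        Fintype.card ι ^ 2 * (2 * ε * (m z * w ^ 2)) =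
        (Fintype.card ι ^ 2 * (7 * ε)) * (m z * w ^ 2) := by ring
    have a4 := mul_le_mul_of_nonneg_left mw (show 0 ≤ Fintype.card ι ^ 2 * (7 * ε) by positivity)
    have a5 := mul_le_mul_of_nonneg_right e1 mF
    linarith
  · refine (cW_dF c a r t).trans ?_
    have a1 : k z * w ^ 2 * μ ≤ m z * w ^ 2 := by
      have := mul_le_mul_of_nonneg_right hkm (sq_nonneg w)
      linarith
    have a2 : (504 * C * Fintype.card ι ^ 2 * ε) * (k z * w ^ 2) * μ ≤
        η * (m z * σ.F W z) * μ := by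
      calc (504 * C * Fintype.card ι ^ 2 * ε) * (k z * w ^ 2) * μ
          = (504 * C * Fintype.card ι ^ 2 * ε) * (k z * w ^ 2 * μ) := by ring
        _ ≤ (504 * C * Fintype.card ι ^ 2 * ε) * (2 * (m z * σ.F W z)) :=
            mul_le_mul_of_nonneg_left (a1.trans mw) (by positivity)
        _ = (Fintype.card ι ^ 2 * (1008 * C * ε)) * (m z * σ.F W z) := by ring
        _ ≤ (Fintype.card ι ^ 2 * (1296 * C * ε)) * (m z * σ.F W z) := by
            refine mul_le_mul_of_nonneg_right (mul_le_mul_of_nonneg_left ?_ N0) mF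
            have : 0 ≤ C * ε := by positivity
            linarith
        _ ≤ (η * μ) * (m z * σ.F W z) := mul_le_mul_of_nonneg_right e2 mF
        _ = _ := by ring
    exact le_of_mul_le_mul_right a2 hμ
  · refine (cW_eC c a r t hv f).trans ?_
    have a1 : k z * Ys σ W f z * μ ≤ m z * Ys σ W f z := by
      have := mul_le_mul_of_nonneg_right hkm (Y0 f)
      linarith
    have mY : 0 ≤ m z * Ys σ W f z := mul_nonneg m0 (Y0 f)
    have a2 : (648 * C * Fintype.card ι ^ 2 * ε) * (k z * Ys σ W f z) * μ ≤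
        η * (1 / 2 * m z * Ys σ W f z) * μ := by
      calc (648 * C * Fintype.card ι ^ 2 * ε) * (k z * Ys σ W f z) * μ
          = (648 * C * Fintype.card ι ^ 2 * ε) * (k z * Ys σ W f z * μ) := by ring
        _ ≤ (648 * C * Fintype.card ι ^ 2 * ε) * (m z * Ys σ W f z) :=
            mul_le_mul_of_nonneg_left a1 (by positivity)
        _ = (Fintype.card ι ^ 2 * (1296 * C * ε)) * (1 / 2 * (m z * Ys σ W f z)) := by ring
        _ ≤ (η * μ) * (1 / 2 * (m z * Ys σ W f z)) :=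
            mul_le_mul_of_nonneg_right e2 (by positivity)
        _ = _ := by ring
    exact le_of_mul_le_mul_right a2 hμ
  · have c1 : ∀ l, cW σ α β k s γ W e h l z ^ 2 ≤ (24 * C * k z / w) ^ 2 := fun l => by
      rw [← sq_abs]
      exact pow_le_pow_left₀ (abs_nonneg _) (cW_le c a r l) 2
    have c2 : ∑ i, cW σ α β k s γ W e h i z ^ 2 ≤ Fintype.card ι * (24 * C * k z / w) ^ 2 := by
      refine (Finset.sum_le_sum fun i _ => c1 i).trans (le_of_eq ?_)
      rw [Finset.sum_const, Finset.card_univ, nsmul_eq_mul]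
    have s0 : 0 ≤ ∑ i, cW σ α β k s γ W e h i z ^ 2 := Finset.sum_nonneg fun i _ => sq_nonneg _
    have c3 : (2 + m z) * ∑ i, cW σ α β k s γ W e h i z ^ 2 ≤
        ε * w ^ 2 * (Fintype.card ι * (24 * C * k z / w) ^ 2) :=
      mul_le_mul hm c2 s0 (by positivity)
    have c4 : ε * w ^ 2 * (Fintype.card ι * (24 * C * k z / w) ^ 2) =
        Fintype.card ι * (1152 * C ^ 2 * ε) * (1 / 2 * k z ^ 2) := by
      field_simp; ring
    have c5 : (μ * k z) ^ 2 ≤ m z ^ 2 := pow_le_pow_left₀ (by positivity) hkm 2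
    rw [c4] at c3
    refine c3.trans ?_
    have c6 := mul_le_mul_of_nonneg_right e3 (show 0 ≤ 1 / 2 * k z ^ 2 by positivity)
    have c7 := mul_le_mul_of_nonneg_left c5 (show 0 ≤ η ^ 4 * (1 / 2) by positivity)
    linarith

/-- **The regime from the numbers.** -/
theorem rg_of {c₁ C₂ T : ℝ} (dw : Dfv (gw σ W) z) (hc₁ : 0 < c₁) (hT : 0 < T)
    (hε : 0 < ε) (hw : c₁ * T ≤ nn (gw σ W z)) (hM : ∀ j, nn (dv σ j (gw σ W) z) ≤ C₂ * T)
    (hk : k z ≤ C₂ * T) (hb : b + 1 ≤ C₂) (hT2 : C₂ ≤ ε * c₁ ^ 2 * T) (hT1 : C₂ ≤ ε * c₁ * T) :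
    Rg σ W k b ε z := by
  have w0 : 0 < nn (gw σ W z) := lt_of_lt_of_le (by positivity) hw
  have w2 : (c₁ * T) ^ 2 ≤ nn (gw σ W z) ^ 2 := pow_le_pow_left₀ (by positivity) hw 2
  have q : C₂ * T ≤ ε * nn (gw σ W z) ^ 2 := by
    have h1 := mul_le_mul_of_nonneg_right hT2 hT.le
    have h2 := mul_le_mul_of_nonneg_left w2 hε.le
    nlinarith
  refine ⟨dw, ?_, hk.trans q, ?_, fun j => (hM j).trans q⟩
  · have := nn_sq (gw σ W z)
    rw [← this]; positivity
  · have h1 := mul_le_mul_of_nonneg_left hw hε.le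
    linarith

end Vale.Agent.P088.R2.H983.N
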